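import Vale.Agent.P065.H806.Sys
import Vale.Agent.P065.H268.TimeFrame
import Vale.Agent.P065.H268.TimeNear
import Vale.Agent.P065.H819.Thick

/-!
# P065: assembly, case (II): statements of the packages and closure (helper806)
-/

set_option autoImplicit false

open Finset Real

noncomputable section

namespace Vale.Agent.P065.H806

open Vale.Agent.P065.UB Vale.Agent.P065.Ent Vale.Agent.P065.H268 Vale.Agent.P065.H154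
  Vale.Agent.P065.H700

namespace Sys

variable {B₀ K₁ PP Γ s₀ Λ kN : ℕ} {c₂ ρ ε₂ e : ℝ} {n g : ℕ}
  (S : Sys B₀ K₁ PP Γ s₀ Λ kN c₂ ρ ε₂ e n g)

/-- the pieces on columns and flags -/
abbrev Pf (u : ℝ) : Pcs (S.p.Col × S.Ω) := H154.Pf S.F S.p u s₀

/-- line and column -/
abbrev Y (a : S.p.Col × S.Ω) : S.p.Col × Pt := (a.1, S.ln a.2)

/-- thick boxes -/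
def th (u : ℝ) (γ' PB : ℕ) (ps : ℝ) (t : ℕ) (a : S.p.Col × S.Ω) : Prop :=
  H819.Th S.F S.ln S.p u γ' PB S.q ps t a

open Classical in
/-- input `bad` -/
def bad (u : ℝ) (γ' g₀ : ℕ) (ρ' : ℝ) : ℝ :=
  ∑ a, S.q a * #{j ∈ range S.F.n | g₀ ≤ (S.F.Q u s₀).tm j a.2 ∧
    ¬ Good (S.Pf u) S.q (fun a => (a.1, S.ln a.2)) (Rt S.F S.ln S.p u γ') ρ' g₀ j a}

open Classical in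
/-- input `thin` with the kernel of the line -/
def thin (u : ℝ) (γ' PB : ℕ) (ps : ℝ) : ℝ :=
  ∑ a, S.q a * ∑ t ∈ range (S.F.P.T + s₀) with ¬ S.th u γ' PB ps t a,
    -log (H353.kt (S.Pf u) S.q (fun a => (a.1, S.ln a.2)) (Rt S.F S.ln S.p u γ') t a)

end Sys

/-- **statement of `hbad`** (353): `u`-dependent part: any functional -/
def HBad : Prop := ∀ (B₀ : ℕ) (c₂ ρ ρ' δ : ℝ), 2 ≤ B₀ → 0 < ρ → ρ < ρ' → ρ' < 1 → 0 < δ →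
  -- the cut margin depends on `B₀`, `δ` only
  ∃ g₀ : ℕ, ∀ (K₁ : ℕ), 1 ≤ K₁ → ∀ (γ' PP Γ s₀ Λ kN : ℕ), γ' ≤ Γ → γ' ≤ s₀ →
  ∃ g₁ : ℕ, ∀ (ε₂ e : ℝ) (n g : ℕ), 0 ≤ ε₂ → g₁ ≤ g →
    ∀ S : Sys B₀ K₁ PP Γ s₀ Λ kN c₂ ρ ε₂ e n g,
    ∃ Fn : ℝ → ℝ, (∀ u, 0 ≤ Fn u) ∧ AvLe Fn (δ * g / K₁) ∧
      ∀ u, S.bad u γ' g₀ ρ' ≤ ε₂ * n + δ * g / K₁ + Fn u

/-- **statement of `hthin`** (562) -/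
def HThin : Prop := ∀ (B₀ K₁ : ℕ) (c₂ ρ ε₂ e δ : ℝ), 2 ≤ B₀ → 1 ≤ K₁ → 0 < e → 0 < δ →
  ∃ γ₀ : ℕ, ∀ γ' ≥ γ₀,
  ∃ ps : ℝ, 0 < ps ∧ ps ≤ 1 / 4 ∧ ∃ PBT : ℕ, ∀ PB ≥ PBT, ∃ PP₀ Γ₀ σ₀ : ℕ, ∀ PP ≥ PP₀, ∀ Γ ≥ Γ₀,
  ∀ s₀ ≥ σ₀, γ' ≤ Γ → γ' ≤ s₀ → ∀ Λ : ℕ, ∃ kN₀ : ℕ, ∀ kN ≥ kN₀, ∃ g₁ : ℕ, ∀ n g : ℕ, g₁ ≤ g →
    ∀ S : Sys B₀ K₁ PP Γ s₀ Λ kN c₂ ρ ε₂ e n g,
    ∃ Fn : ℝ → ℝ, (∀ u, 0 ≤ Fn u) ∧ AvLe Fn (δ * g) ∧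
      ∀ u, S.thin u γ' PB ps ≤ δ * g + Fn u

open Classical in
/-- **statement of `hrows` and `hnear`** (819, 279) -/
def HRows : Prop := ∀ (B₀ K₁ γ' PBT M : ℕ) (c₂ ρ ε₂ e δ ps : ℝ), 2 ≤ B₀ → 1 ≤ K₁ → 0 < e →
  0 < δ → 0 < ps → ps ≤ 1 / 4 →
  ∃ PB ≥ PBT, ∃ γ ≥ γ', ∃ PP₀ Γ₀ σ₀ : ℕ, γ ≤ Γ₀ ∧ γ ≤ σ₀ ∧ ∀ PP ≥ PP₀, ∀ Γ ≥ Γ₀,
  ∀ s₀ ≥ σ₀, ∀ Λ kN : ℕ, ∃ g₁ : ℕ, ∀ n g : ℕ, g₁ ≤ g →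
    ∀ S : Sys B₀ K₁ PP Γ s₀ Λ kN c₂ ρ ε₂ e n g,
    ∃ Fn : ℝ → ℝ, (∀ u, 0 ≤ Fn u) ∧ AvLe Fn (δ * g) ∧ ∀ u, ∃ cov : S.p.Col × S.Ω → ℝ,
      Det (rb S.F S.ln S.p S.lam) cov ∧
      log 2 * ∑ a, S.Q a * cov a - δ * g ≤ ∑ t ∈ range (S.F.P.T + s₀),
        Hc S.Q (Rt S.F S.ln S.p u γ (t + 1))
          (fun a => (S.F.D u (t + 1) a.2, Rt S.F S.ln S.p u γ t a)) ∧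
      ∑ a, S.q a * #(Cov (S.Pf u) (S.th u γ' PB ps) M a) ≤
        ∑ a, S.q a * cov a + δ * g + Fn u

/-- **statement of case (II)** -/
def CaseII : Prop := ∀ (B₀ : ℕ) (c₂ ρ : ℝ), 2 ≤ B₀ → 0 < c₂ → 0 < ρ → ρ < 1 →
  ∃ ε₂ : ℝ, 0 < ε₂ ∧ ∃ Mb : ℕ, 4 ≤ Mb ∧ ∀ K₁ ≥ Mb, ∃ PP₀ Γ₀ σ₀ : ℕ, ∀ PP ≥ PP₀,
  ∀ Γ ≥ Γ₀, ∀ s₀ ≥ σ₀, ∀ Λ : ℕ, ∃ kN₀ : ℕ, ∀ kN ≥ kN₀, ∃ g₁ : ℕ, ∀ n g : ℕ, g₁ ≤ g →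
    Sys B₀ K₁ PP Γ s₀ Λ kN c₂ ρ ε₂ (c₂ / 40) n g → False

end Vale.Agent.P065.H806
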