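import Vale.Agent.P065.H806.Asm1
import Vale.Agent.P065.H806.Asm2

/-!
# P065: assembly, first consequences of `Sys` (helper806)
-/

set_option autoImplicit false

open Finset Real

noncomputable section

namespace Vale.Agent.P065.H806

open Vale.Agent.P065.UB Vale.Agent.P065.Ent Vale.Agent.P065.H268 Vale.Agent.P065.H154
  Vale.Agent.P065.H700

namespace Sys

variable {B₀ K₁ PP Γ s₀ Λ kN : ℕ} {c₂ ρ ε₂ e : ℝ} {n g : ℕ}
  (S : Sys B₀ K₁ PP Γ s₀ Λ kN c₂ ρ ε₂ e n g)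

/-- the lower bound of the weight per offset -/
def J1 (_ : Sys B₀ K₁ PP Γ s₀ Λ kN c₂ ρ ε₂ e n g) : ℝ := g / (Λ * (1 + log g))

include S in
theorem Λ_pos : 0 < Λ := by
  rcases Nat.eq_zero_or_pos Λ with h | h
  · exfalso
    have h1 := S.hμ.sum
    have h2 : ∀ ω, S.μ ω ≤ 0 := fun ω => by
      have h4 := S.μ_le ω
      have h5 : (Λ : ℝ) = 0 := by exact_mod_cast h
      have h6 : (Λ : ℝ) * S.ν ω = 0 := by rw [h5, zero_mul]
      exact h4.trans h6.le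
    have h3 : ∑ ω, S.μ ω ≤ 0 := sum_nonpos fun ω _ => h2 ω
    linarith
  · exact h

theorem J1_pos (hg : 1 ≤ g) : 0 < S.J1 := by
  unfold J1
  have h1 : (1 : ℝ) ≤ g := by exact_mod_cast hg
  have h2 : 0 ≤ log (g : ℝ) := log_nonneg h1
  have h3 : (0 : ℝ) < Λ := by exact_mod_cast S.Λ_pos
  positivity

theorem J_pos (hg : 1 ≤ g) : 0 < S.C.J S.μ := by
  have h2 := S.J1_pos hg
  have h3 : (0 : ℝ) < S.p.nT := by exact_mod_cast S.p.nT_pos
  exact (mul_pos h3 h2).trans_le S.J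

theorem probQ (hg : 1 ≤ g) : IsProb S.Q := Cols.isProb_Q S.hμ (S.J_pos hg)

theorem probq (hg : 1 ≤ g) : IsProb S.q := Cols.isProb_Qs S.hμ (S.J_pos hg) _

theorem ν_pos {ω : S.Ω} (h : 0 < S.μ ω) : 0 < S.ν ω := by
  have h1 := h.trans_le (S.μ_le ω)
  exact pos_of_mul_pos_right h1 (Nat.cast_nonneg _)

theorem Q_pos' {a : S.p.Col × S.Ω} (h : 0 < S.Q a) : 0 < S.μ a.2 := H806.Q_pos S.hμ h

theorem q_pos' {a : S.p.Col × S.Ω} (h : 0 < S.q a) : 0 < S.Q a := H806.Qs_pos S.hμ h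

theorem same (x) : Pr S.q (rb S.F S.ln S.p S.lam) x = Pr S.Q (rb S.F S.ln S.p S.lam) x :=
  Pr_Qs S.C S.hμ _ (fun _ => rfl) x

theorem Tm_le_M : S.F.Tm ≤ S.p.M := S.F.Tm_le.trans ((Nat.le_add_right _ _).trans S.M_ge)

theorem lit_per : FPer S.F S.ln S.p S.lam (fun _ _ => false) := fun _ _ _ _ _ => rfl

theorem perq : LPer S.F S.p S.q := fun k _ _ _ h =>
  Qs_per (μ := S.μ) (f0 := S.f0) (f1 := S.f1) S.Tm_le_M S.fper S.lit_per k h

theorem perQ : LPer S.F S.p S.Q := fun k _ _ _ h =>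
  Q_per (μ := S.μ) (f0 := S.f0) (f1 := S.f1) S.Tm_le_M S.fper k h

/-- `q` has density at most `1 / (nT J1)` -/
theorem q_le (hg : 1 ≤ g) (a : S.p.Col × S.Ω) :
    S.q a ≤ Λ / (S.p.nT * S.J1) * S.ν a.2 := by
  have h1 : S.q a ≤ S.μ a.2 / S.C.J S.μ := Cols.Qs_le S.hμ _ a
  have h2 := S.J1_pos hg
  have h3 : (0 : ℝ) < S.p.nT := by exact_mod_cast S.p.nT_pos
  have h4 : S.p.nT * S.J1 ≤ S.C.J S.μ := S.J
  calc S.q a ≤ S.μ a.2 / S.C.J S.μ := h1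
    _ ≤ S.μ a.2 / (S.p.nT * S.J1) :=
        div_le_div_of_nonneg_left (S.hμ.nonneg _) (by positivity) h4
    _ ≤ (Λ * S.ν a.2) / (S.p.nT * S.J1) :=
        div_le_div_of_nonneg_right (S.μ_le a.2) (by positivity)
    _ = _ := by ring

/-- number of active columns of a line -/
theorem act_q (ω : S.Ω) [DecidablePred fun c : S.p.Col => ∃ ω', S.ln ω' = S.ln ω ∧
    0 < S.q (c, ω')] : ((univ : Finset S.p.Col).filter fun c => ∃ ω', S.ln ω' = S.ln ω ∧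
    0 < S.q (c, ω')).card ≤ S.p.nT * g ^ Λ := by
  have h := S.act ω
  have h1 : ((univ : Finset S.p.Col).filter fun c => ∃ ω', S.ln ω' = S.ln ω ∧
    0 < S.q (c, ω')).card ≤ #{c : S.p.Col | ∃ ω', S.ln ω' = S.ln ω ∧ 0 <
      (cols S.F S.ln S.p S.lam S.f S.f0 S.f1).Q S.μ (c, ω')} := by
    apply card_le_card
    intro c hc
    rw [mem_filter] at hc ⊢
    obtain ⟨h2, ω', h3, h4⟩ := hc
    exact ⟨h2, ω', h3, S.q_pos' h4⟩
  have h2 : (((univ : Finset S.p.Col).filter fun c => ∃ ω', S.ln ω' = S.ln ω ∧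
    0 < S.q (c, ω')).card : ℝ) ≤ S.p.nT * (g : ℝ) ^ Λ := le_trans (by exact_mod_cast h1) h
  exact_mod_cast h2

end Sys

end Vale.Agent.P065.H806
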