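import Vale.Agent.P065.H806.Num
import Vale.Agent.P065.H649.CoarseFr

/-!
# P065: assembly, case (II): what is known (helper806)

`Sys` : the final system of columns of case (II) with everything which is known about it.
The numbers: `B₀ K₁` (pieces), `PP Γ s₀` (frame), `Λ` (the only growth constant: `J`, densities,
number of active columns, coarse masses), `kN` (exponent of NG), `e` (the small constant),
`n g` (size).
-/

set_option autoImplicit false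

open Finset Real

noncomputable section

namespace Vale.Agent.P065.H806

open Vale.Agent.P065.UB Vale.Agent.P065.Ent Vale.Agent.P065.H268 Vale.Agent.P065.H154
  Vale.Agent.P065.H700

/-- **the final system of case (II)** -/
structure Sys (B₀ K₁ PP Γ s₀ Λ kN : ℕ) (c₂ ρ ε₂ e : ℝ) (n g : ℕ) where
  Ω : Type
  [fin : Fintype Ω]
  [ne : Nonempty Ω]
  F : Fr Ω
  ln : Ω → Pt
  p : Prm
  Lab : Type
  lam : Ω → Lab
  f : p.Col → (ℕ × Lab) × ℤ × ℤ → ℝ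
  f0 : ∀ k r, 0 ≤ f k r
  f1 : ∀ k r, f k r ≤ 1
  /-- law of the typical flags -/
  μ : Ω → ℝ
  /-- law of all flags -/
  ν : Ω → ℝ
  hμ : IsProb μ
  hν : IsProb ν
  μ_le : ∀ ω, μ ω ≤ Λ * ν ω
  -- pieces
  n_eq : F.n = n
  Kn : K₁ * n ≤ g
  top : ∀ ω ω', F.P.W 0 ω = F.P.W 0 ω'
  lbl : ∀ u j ω, (H353.lbl (F.Q u s₀) j ω).card ≤ B₀ ^ (2 * K₁)
  leaves : #(univ.image (F.P.W F.n)) ≤ B₀ ^ (2 * g)
  -- parameters of the frame
  PP_eq : p.PP = PP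
  Γ_le : Γ ≤ p.Γ
  M_ge : F.P.T + s₀ ≤ p.M
  -- weights
  fper : FPer F ln p lam f
  J : p.nT * (g / (Λ * (1 + log g))) ≤ (cols F ln p lam f f0 f1).J μ
  /-- masses of the labels in the slope cell (987's `hsup`) -/
  sup : ∀ c ω, 0 < (cols F ln p lam f f0 f1).wt μ c (rho F ln p lam c ω) → ∀ b : Bool,
    exp (-(Λ * g)) ≤ Pr μ (fun ω => (lb ln p c ω, Prm.S c.1 (ln ω))) (some b, Prm.S c.1 (ln ω))
  /-- number of active columns of a line (649) -/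
  act : ∀ ω, (#{c : p.Col | ∃ ω', ln ω' = ln ω ∧ 0 < (cols F ln p lam f f0 f1).Q μ (c, ω')} : ℝ) ≤
    p.nT * (g : ℝ) ^ Λ
  /-- the two blocks are separated (860's `sep_of`, `q = 3`) -/
  sep : ∀ c r, 0 < (cols F ln p lam f f0 f1).wt μ c r →
    1 / 2 ^ 9 ≤ |(Prm.b0 c.1 : ℝ) - (Prm.b1 c.1 : ℝ)| / 2 ^ p.PP
  /-- the boxes are big -/
  big : ∀ a, 0 < (cols F ln p lam f f0 f1).Q μ a →
    exp (-(e * g)) * Pr μ (fun ω => (F.P.W F.n ω, lam ω)) (F.P.W F.n a.2, lam a.2) ≤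
      Pr μ (rho F ln p lam a.1) (rho F ln p lam a.1 a.2)
  /-- the labels are not surprising -/
  lab : ∀ ω, 0 < μ ω → exp (-(e * g)) * Pr ν (F.P.W F.n) (F.P.W F.n ω) ≤
    Pr ν (fun ω => (F.P.W F.n ω, lam ω)) (F.P.W F.n ω, lam ω)
  -- typical flags
  sur : ∀ ω, 0 < μ ω → c₂ * g ≤ -log (Pr ν (fun ω => (F.P.W F.n ω, ln ω)) (F.P.W F.n ω, ln ω) /
    Pr ν ln (ln ω))
  split : ∀ ω, 0 < μ ω → (#{j ∈ range F.n | ¬ Pr ν (fun ω => (F.P.W (j + 1) ω, ln ω))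
    (F.P.W (j + 1) ω, ln ω) ≤ ρ * Pr ν (fun ω => (F.P.W j ω, ln ω)) (F.P.W j ω, ln ω)} : ℝ) ≤ ε₂ * n
  /-- no giant exits of time -/
  ng : ∀ (u : ℝ) (T : ℕ), PE μ (fun ω => ∃ t < T,
    Pr ν (fun ω => (F.D u (t + 1) ω, ln ω)) (F.D u (t + 1) ω, ln ω) ≤
      (1 / (g : ℝ)) ^ (3 * kN + 9) * Pr ν (fun ω => (F.D u t ω, ln ω)) (F.D u t ω, ln ω)) ≤
    (1 / (g : ℝ)) ^ kN

attribute [instance] Sys.fin Sys.ne

namespace Sys

variable {B₀ K₁ PP Γ s₀ Λ kN : ℕ} {c₂ ρ ε₂ e : ℝ} {n g : ℕ}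
  (S : Sys B₀ K₁ PP Γ s₀ Λ kN c₂ ρ ε₂ e n g)

/-- the columns -/
def C : Cols S.Ω S.p.Col ((ℕ × S.Lab) × ℤ × ℤ) := cols S.F S.ln S.p S.lam S.f S.f0 S.f1

/-- the law with both labels -/
def Q : S.p.Col × S.Ω → ℝ := S.C.Q S.μ

/-- the law of one label -/
def q : S.p.Col × S.Ω → ℝ := S.C.Qs S.μ (fun _ _ => false)

/-- the number of time levels -/
def T : ℕ := S.F.P.T + s₀

/-- upper bound of the entropy of the pieces -/
def Hw (_ : Sys B₀ K₁ PP Γ s₀ Λ kN c₂ ρ ε₂ e n g) : ℝ := 2 * g * log B₀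

end Sys

end Vale.Agent.P065.H806
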