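import Vale.Agent.P065.H859.LocMain

/-!
# P065: assembly, top level (helper806)

`NoLoc` is what the local part has to prove; it implies `¬ 1 < beta`.
-/

set_option autoImplicit false

namespace Vale.Agent.P065.H806

open Vale.Agent.P065.UB Vale.Agent.P065.H859

/-- the local part for one set of constants of `exists_loc`: `ε₂` and `M` first, then the richness
function `A`, then, for every `K`, the numbers `ε₃`, `b` and the threshold for `g` -/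
def NoLoc (B₀ : ℕ) (c₁ c₂ ρ γ : ℝ) : Prop :=
  ∃ ε₂ : ℝ, 0 < ε₂ ∧ ∃ M : ℕ, 4 ≤ M ∧ ∃ A : ℕ → ℝ, (∀ g, 0 < A g) ∧
    ∀ K : ℕ, 1 ≤ K → ∃ ε₃ : ℝ, 0 < ε₃ ∧ ∃ b : ℝ, 0 < b ∧ ∃ f : ℕ, ∀ g : ℕ, f ≤ g →
      Loc B₀ c₁ c₂ ρ γ ε₂ ε₃ b (A g) (M * K) (g / (M * K)) g → False

theorem not_one_lt_beta (h : ∀ (B₀ : ℕ) (c₁ c₂ ρ γ : ℝ), 2 ≤ B₀ → 0 < c₁ → 0 < c₂ → 0 < ρ →
    ρ < 1 → 0 ≤ γ → γ < 1 → NoLoc B₀ c₁ c₂ ρ γ) : ¬ 1 < beta := by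
  classical
  intro hb
  obtain ⟨B₀, c₁, c₂, ρ, γ, h1, h2, h3, h4, h5, h6, h7, H⟩ := exists_loc hb
  obtain ⟨ε₂, hε₂, M, hM, A, hA, hK⟩ := h B₀ c₁ c₂ ρ γ h1 h2 h3 h4 h5 h6 h7
  have hK' : ∀ K : ℕ, ∃ ε₃ : ℝ, 0 < ε₃ ∧ ∃ b : ℝ, 0 < b ∧ ∃ f : ℕ, 1 ≤ K → ∀ g : ℕ, f ≤ g →
      Loc B₀ c₁ c₂ ρ γ ε₂ ε₃ b (A g) (M * K) (g / (M * K)) g → False := by
    intro K
    by_cases h1K : 1 ≤ K
    · obtain ⟨ε₃, hε₃, b, hb', f, hf⟩ := hK K h1K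
      exact ⟨ε₃, hε₃, b, hb', f, fun _ => hf⟩
    · exact ⟨1, one_pos, 1, one_pos, 0, fun h => absurd h h1K⟩
  choose ε₃ hε₃ b hb' f hf using hK'
  obtain ⟨K, g, hK1, hfg, ⟨L⟩⟩ := H ε₂ hε₂ M hM ε₃ b f A hε₃ hb' hA
  exact hf K hK1 g hfg L

end Vale.Agent.P065.H806
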