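import Vale.Agent.P065.H806.Cross

/-!
# P065: assembly, the inputs `mend`, `r₀`, `thk` of the bookkeeping theorem on the FRAME (helper806)
-/

set_option autoImplicit false

open Finset Real

noncomputable section

namespace Vale.Agent.P065.H806

open Vale.Agent.P065.UB Vale.Agent.P065.Ent Vale.Agent.P065.H268 Vale.Agent.P065.H154
  Vale.Agent.P065.H700

section frame

variable {Ω : Type*} [Fintype Ω] {Lab : Type*} (F : Fr Ω) (ln : Ω → Pt) (p : Prm) (lam : Ω → Lab)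

omit [Fintype Ω] in
/-- the centre determines the bottom piece -/
lemma W_of_x (j : ℕ) {ω ω' : Ω} (h : F.P.x ω = F.P.x ω') : F.P.W j ω = F.P.W j ω' :=
  F.P.W_eq_of_x h

omit [Fintype Ω] in
/-- the last time cell determines the centre -/
lemma x_of_D {u : ℝ} (s : ℕ) {ω ω' : Ω}
    (h : F.D u (F.P.T + s) ω = F.D u (F.P.T + s) ω') : F.P.x ω = F.P.x ω' := by
  have h1 : (F.Q u s).D (F.Q u s).T ω = (F.Q u s).D (F.Q u s).T ω' := h
  have h2 := (F.Q u s).x_eq_of_D h1
  rw [Fr.Q_x, Fr.Q_x] at h2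
  linarith

/-- **the input `mend`**: the fine boxes of `Q` are not small in their class, the labels are not
surprising -/
theorem mend_le {Q : p.Col × Ω → ℝ} (hQ : IsProb Q) {μ ν : Ω → ℝ} (hμ : IsProb μ)
    (hν : IsProb ν) (hacμ : ∀ q, 0 < Q q → 0 < μ q.2) (hacν : ∀ q, 0 < Q q → 0 < ν q.2)
    {s₁ s₂ : ℝ}
    (hbig : ∀ q, 0 < Q q → exp (-s₁) * Pr μ (fun ω => (F.P.W F.n ω, lam ω))
      (F.P.W F.n q.2, lam q.2) ≤ Pr μ (rho F ln p lam q.1) (rho F ln p lam q.1 q.2))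
    (hlab : ∀ q, 0 < Q q → exp (-s₂) * Pr ν (F.P.W F.n) (F.P.W F.n q.2) ≤
      Pr ν (fun ω => (F.P.W F.n ω, lam ω)) (F.P.W F.n q.2, lam q.2))
    (u : ℝ) (s γ : ℕ) :
    Hc Q (Rt F ln p u γ (F.P.T + s)) (fun q => (F.D u (F.P.T + s) q.2, q.1)) ≤ s₁ + s₂ := by
  set V : p.Col × Ω → ℕ × Lab := fun q => (F.P.W F.n q.2, lam q.2) with hV
  set X : p.Col × Ω → (ℕ × Lab) × ℤ × ℤ := fun q => rho F ln p lam q.1 q.2 with hX
  -- fine boxes determine the boxes, given the column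
  have h1 : Hc Q (Rt F ln p u γ (F.P.T + s)) (fun q => (F.D u (F.P.T + s) q.2, q.1)) ≤
      Hc Q X (fun q => (F.P.W F.n q.2, q.1)) := by
    have e1 : Hc Q (Rt F ln p u γ (F.P.T + s)) (fun q => (F.D u (F.P.T + s) q.2, q.1)) ≤
        Hc Q (rb F ln p lam) (fun q => (F.D u (F.P.T + s) q.2, q.1)) :=
      Hc_mono_left hQ (rb_Rt u γ (F.P.T + s))
    have e2 : Hc Q (rb F ln p lam) (fun q => (F.D u (F.P.T + s) q.2, q.1)) ≤
        Hc Q (rb F ln p lam) (fun q => (F.P.W F.n q.2, q.1)) := by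
      apply Hc_anti hQ
      intro q q' h
      simp only [Prod.mk.injEq] at h ⊢
      exact ⟨W_of_x F F.n (x_of_D F s h.1), h.2⟩
    have e3 : Hc Q (rb F ln p lam) (fun q => (F.P.W F.n q.2, q.1)) =
        Hc Q X (fun q => (F.P.W F.n q.2, q.1)) := by
      unfold Hc
      congr 1
      apply H_congr
      · intro q q' h
        simp only [Prod.mk.injEq] at h ⊢
        refine ⟨?_, h.2⟩
        have h3 := h.1
        unfold rb at h3
        simp only [Prod.mk.injEq] at h3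
        exact Prod.ext_iff.2 ⟨congrArg Prod.fst h3.2, congrArg Prod.snd h3.2⟩
      · intro q q' h
        simp only [Prod.mk.injEq] at h ⊢
        refine ⟨?_, h.2⟩
        unfold rb
        rw [Prod.mk.injEq]
        exact ⟨h.2.2, h.1⟩
    linarith
  have h2 := Hc_le_add hQ X V (fun q => (F.P.W F.n q.2, q.1))
  have h3 : Hc Q X (fun q => (V q, F.P.W F.n q.2, q.1)) ≤ s₁ := by
    have e1 : Hc Q X (fun q => (V q, F.P.W F.n q.2, q.1)) ≤ Hc Q X (fun q => (V q, q.1)) := by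
      apply Hc_anti hQ
      exact (det_fst _ _).pair ((det_snd _ _).trans (det_snd _ _))
    refine e1.trans ?_
    refine Hc_cross_le hQ hμ hacμ (fun c => rho F ln p lam c)
      (fun ω => (F.P.W F.n ω, lam ω)) ?_
    intro q hq
    refine (hbig q hq).trans (le_of_eq ?_)
    apply Pr_congr
    · intro ω ω' h
      simp only [Prod.mk.injEq] at h ⊢
      refine ⟨h, ?_⟩
      have h5 := congrArg Prod.fst h
      simpa [rho] using h5
    · exact det_fst _ _
  have h4 : Hc Q V (fun q => (F.P.W F.n q.2, q.1)) ≤ s₂ := by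
    refine Hc_cross_le hQ hν hacν (fun _ ω => (F.P.W F.n ω, lam ω)) (F.P.W F.n) ?_
    intro q hq
    refine (hlab q hq).trans (le_of_eq ?_)
    apply Pr_congr
    · intro ω ω' h
      simp only [Prod.mk.injEq] at h ⊢
      exact ⟨h, h.1⟩
    · exact det_fst _ _
  linarith

/-- floors of close numbers -/
lemma floor_mem_of_abs_lt {x y : ℝ} (h : |x - y| < 1) : ⌊x⌋ ∈ ({⌊y⌋ - 1, ⌊y⌋, ⌊y⌋ + 1} : Finset ℤ) := by
  obtain ⟨h1, h2⟩ := abs_lt.1 h
  have h3 : ⌊y⌋ - 1 ≤ ⌊x⌋ := by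
    apply Int.le_floor.2
    have := Int.floor_le y
    push_cast
    linarith
  have h4 : ⌊x⌋ < ⌊y⌋ + 2 := by
    apply Int.floor_lt.2
    have := Int.lt_floor_add_one y
    push_cast
    linarith
  simp only [mem_insert, mem_singleton]
  omega

omit [Fintype Ω] in
lemma abs_x_sub_lt (ω ω' : Ω) : |F.P.x ω - F.P.x ω'| < 1 := by
  have h1 := F.P.diam ω ω'
  have h2 := F.P.diam ω' ω
  have h3 := F.P.δ_pos
  exact abs_lt.2 ⟨by linarith, by linarith⟩

/-- **the input `r₀`** -/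
theorem r0_le {q : p.Col × Ω → ℝ} (hq : IsProb q) (u : ℝ) (γ : ℕ) :
    Hc q (Rt F ln p u γ 0) (fun q => (q.1, ln q.2)) ≤ log 9 := by
  classical
  refine Hc_le_log hq _ _ 9 (by norm_num) ?_
  rintro ⟨c, ω⟩
  refine ⟨(({⌊F.P.x ω + u⌋ - 1, ⌊F.P.x ω + u⌋, ⌊F.P.x ω + u⌋ + 1} : Finset ℤ) ×ˢ
    ({⌊Prm.h c (F.P.x ω) (ln ω) / 2 ^ γ⌋ - 1, ⌊Prm.h c (F.P.x ω) (ln ω) / 2 ^ γ⌋,
      ⌊Prm.h c (F.P.x ω) (ln ω) / 2 ^ γ⌋ + 1} : Finset ℤ)).image
      (fun y => (c, Prm.S c.1 (ln ω), y.1, y.2)), ?_, ?_⟩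
  · refine card_image_le.trans ?_
    rw [card_product]
    have h1 : ∀ a : ℤ, #({a - 1, a, a + 1} : Finset ℤ) ≤ 3 := fun a => card_le_three
    exact Nat.mul_le_mul (h1 _) (h1 _)
  · rintro ⟨c', ω'⟩ h
    simp only [Prod.mk.injEq] at h
    obtain ⟨rfl, h2⟩ := h
    rw [mem_image]
    refine ⟨(F.D u 0 ω', Nf F ln p γ 0 c' ω'), ?_, ?_⟩
    · rw [mem_product]
      constructor
      · have e : F.D u 0 ω' = ⌊F.P.x ω' + u⌋ := by
          unfold Fr.D
          rw [pow_zero, one_mul]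
        rw [e]
        apply floor_mem_of_abs_lt
        have h3 := abs_x_sub_lt F ω' ω
        rwa [show F.P.x ω' + u - (F.P.x ω + u) = F.P.x ω' - F.P.x ω by ring]
      · have e : Nf F ln p γ 0 c' ω' = ⌊Prm.h c' (F.P.x ω') (ln ω') / 2 ^ γ⌋ := by
          unfold Nf Prm.N
          rw [Nat.zero_min, pow_zero, one_mul]
        rw [e]
        apply floor_mem_of_abs_lt
        rw [← sub_div, h2, Prm.h_sub, abs_div, abs_mul]
        have h3 := abs_x_sub_lt F ω' ω
        have h4 := Prm.f_nonneg c'.1 (ln ω)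
        have h5 := Prm.f_lt_one c'.1 (ln ω)
        have h6 : (1 : ℝ) ≤ |(2 : ℝ) ^ γ| := by
          rw [abs_of_pos (by positivity)]
          exact one_le_pow₀ (by norm_num)
        rw [div_lt_one (by linarith), abs_of_nonneg h4]
        have h7 := abs_nonneg (F.P.x ω' - F.P.x ω)
        nlinarith
    · unfold Rt
      rw [← h2]

end frame

section thick

variable {Ω κ : Type*} [Fintype Ω] [Fintype κ] {β : Type*}

/-- the sum of the time entropies, given boxes which determine the time cell -/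
theorem sum_time_le (P : Pcs Ω) {q : κ × Ω → ℝ} (hq : IsProb q) (R : ℕ → κ × Ω → β)
    (hR : ∀ t, Det (R (t + 1)) (R t)) (hRD : ∀ t, Det (R t) (fun p => P.D t p.2))
    (hRc : Det (R 0) (fun p : κ × Ω => p.1)) (T : ℕ) {h₀ m : ℝ}
    (hh : Hc q (fun p => P.D T p.2) (fun p => p.1) ≤ h₀)
    (hm : Hc q (R T) (fun p => (P.D T p.2, p.1)) ≤ m) :
    ∑ t ∈ range T, Hc q (fun p => P.D (t + 1) p.2) (R t) ≤ h₀ + m := by
  have e1 : ∀ t, Hc q (fun p => P.D (t + 1) p.2) (R t) ≤ H q (R (t + 1)) - H q (R t) := by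
    intro t
    have f1 := Hc_pair q (R (t + 1)) (fun p => P.D (t + 1) p.2) (R t)
    have f2 : Hc q (fun p => (R (t + 1) p, P.D (t + 1) p.2)) (R t) =
        H q (R (t + 1)) - H q (R t) :=
      Hc_eq ((Det.refl _).pair (hRD (t + 1))) (hR t) ((det_fst _ _).trans (det_fst _ _))
    have f3 := Hc_nonneg hq (R (t + 1)) (fun p => (P.D (t + 1) p.2, R t p))
    linarith
  have e2 : ∑ t ∈ range T, Hc q (fun p => P.D (t + 1) p.2) (R t) ≤ H q (R T) - H q (R 0) :=
    (sum_le_sum fun t _ => e1 t).trans (sum_range_sub (fun t => H q (R t)) T).le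
  have hRcol : ∀ t, Det (R t) (fun p : κ × Ω => p.1) := fun t => by
    induction t with
    | zero => exact hRc
    | succ t ih => exact (hR t).trans ih
  have f1 : Hc q (R T) (fun p => (P.D T p.2, p.1)) =
      H q (R T) - H q (fun p => (P.D T p.2, p.1)) :=
    Hc_eq (Det.refl _) ((hRD T).pair (hRcol T)) (det_fst _ _)
  have f2 := H_pair q (fun p : κ × Ω => P.D T p.2) (fun p => p.1)
  have e4 : H q (fun p : κ × Ω => p.1) ≤ H q (R 0) := H_mono hq hRc
  linarith

open Classical in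
/-- **the input `thk`**: number of thick boxes -/
theorem thick_le (P : Pcs Ω) {q : κ × Ω → ℝ} (hq : IsProb q) (R : ℕ → κ × Ω → β)
    (th : ℕ → κ × Ω → Prop) {ps : ℝ} (hps : 0 < ps) (T : ℕ)
    (hth : ∀ t < T, ∀ x, 0 < q x → th t x →
      Pr q (fun p => (P.D (t + 1) p.2, R t p)) (P.D (t + 1) x.2, R t x) ≤
        (1 - ps) * Pr q (R t) (R t x)) :
    ∑ p, q p * #{t ∈ range T | th t p} ≤
      ps⁻¹ * ∑ t ∈ range T, Hc q (fun p => P.D (t + 1) p.2) (R t) := by
  have h1 : ∀ p, q p * (#{t ∈ range T | th t p} : ℝ) ≤ ps⁻¹ * ∑ t ∈ range T,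
      q p * (-log (Pr q (fun p => (P.D (t + 1) p.2, R t p)) (P.D (t + 1) p.2, R t p) /
        Pr q (R t) (R t p))) := by
    intro p
    rcases (hq.nonneg p).eq_or_lt with h0 | h0
    · rw [← h0]
      simp
    · rw [← mul_sum, ← mul_assoc, mul_comm ps⁻¹, mul_assoc]
      refine mul_le_mul_of_nonneg_left ?_ h0.le
      rw [← div_eq_inv_mul, le_div_iff₀ hps, card_filter, Nat.cast_sum, sum_mul]
      refine sum_le_sum fun t ht => ?_
      have p1 := Pr_pos hq (fun p => (P.D (t + 1) p.2, R t p)) h0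
      have p2 := Pr_pos hq (R t) h0
      have h4 : Pr q (fun p => (P.D (t + 1) p.2, R t p)) (P.D (t + 1) p.2, R t p) /
          Pr q (R t) (R t p) ≤ 1 :=
        div_le_one_of_le₀ (Pr_mono hq (det_snd _ _) p) p2.le
      split_ifs with h
      · have h2 := hth t (mem_range.1 ht) p h0 h
        have h3 := log_le_sub_one_of_pos (div_pos p1 p2)
        have h5 : Pr q (fun p => (P.D (t + 1) p.2, R t p)) (P.D (t + 1) p.2, R t p) /
            Pr q (R t) (R t p) ≤ 1 - ps := by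
          rw [div_le_iff₀ p2]
          exact h2
        push_cast
        linarith
      · push_cast
        have := log_nonpos (div_pos p1 p2).le h4
        linarith
  refine (sum_le_sum fun p _ => h1 p).trans (le_of_eq ?_)
  rw [← mul_sum, sum_comm]
  congr 1
  refine sum_congr rfl fun t _ => ?_
  rw [Hc_eq_sum hq]

end thick

end Vale.Agent.P065.H806
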