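import Vale.Agent.P065.H806.SysFacts

/-!
# P065: assembly, closure of case (II) from the package statements (helper806)
-/

set_option autoImplicit false

open Finset Real

noncomputable section

namespace Vale.Agent.P065.H806

open Vale.Agent.P065.UB Vale.Agent.P065.Ent Vale.Agent.P065.H268 Vale.Agent.P065.H154
  Vale.Agent.P065.H700

/-! ### asymptotics -/

/-- logarithms are small -/
lemma ev_log (C D : ℝ) {δ : ℝ} (hδ : 0 < δ) : ∃ g₁ : ℕ, ∀ g : ℕ, g₁ ≤ g →
    C * log g + D ≤ δ * g := by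
  have h1 : Filter.Tendsto (fun g : ℕ => (C * log g + D) / g) Filter.atTop (nhds 0) := by
    have h2 : Filter.Tendsto (fun x : ℝ => (C * log x + D) / x) Filter.atTop (nhds 0) := by
      have h3 : (fun x : ℝ => C * log x + D) =o[Filter.atTop] (fun x : ℝ => x) := by
        apply Asymptotics.IsLittleO.add
        · exact (Real.isLittleO_log_id_atTop).const_mul_left C
        · exact Asymptotics.isLittleO_const_id_atTop D
      exact h3.tendsto_div_nhds_zero
    exact h2.comp tendsto_natCast_atTop_atTop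
  have h4 := (h1.eventually_lt_const hδ).and (Filter.eventually_ge_atTop 1)
  obtain ⟨g₁, h5⟩ := Filter.eventually_atTop.1 h4
  refine ⟨g₁, fun g hg => ?_⟩
  obtain ⟨h6, h7⟩ := h5 g hg
  have h8 : (0 : ℝ) < g := by exact_mod_cast h7
  rw [div_lt_iff₀ h8] at h6
  exact h6.le

/-- a bound for the number of elements of a filter, for any instance -/
lemma card_filter_le_of {α : Type*} (s : Finset α) (P : α → Prop) {i : DecidablePred P} {N : ℕ}
    (h : ∀ A : Finset α, (∀ a ∈ A, P a) → #A ≤ N) : #(s.filter P) ≤ N :=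
  h _ fun _ ha => (mem_filter.1 ha).2

namespace Sys

variable {B₀ K₁ PP Γ s₀ Λ kN : ℕ} {c₂ ρ ε₂ e : ℝ} {n g : ℕ}
  (S : Sys B₀ K₁ PP Γ s₀ Λ kN c₂ ρ ε₂ e n g)

/-- `log (c N)` -/
def lcN (_ : Sys B₀ K₁ PP Γ s₀ Λ kN c₂ ρ ε₂ e n g) : ℝ := 2 * log Λ + (Λ + 1) * log g + 1

/-- **hG** -/
theorem hG (hg : 1 ≤ g) : c₂ * g - S.lcN ≤
    Hc S.q (fun a => S.F.P.W S.F.n a.2) (fun a => (a.1, S.ln a.2)) := by
  have h1 := S.J1_pos hg
  have h2 : (0 : ℝ) < S.p.nT := by exact_mod_cast S.p.nT_pos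
  have h3 : (0 : ℝ) < Λ := by exact_mod_cast S.Λ_pos
  have hg' : (1 : ℝ) ≤ g := by exact_mod_cast hg
  have hlg : 0 ≤ log (g : ℝ) := log_nonneg hg'
  have hc : 0 < (Λ : ℝ) / (S.p.nT * S.J1) := by positivity
  refine le_trans ?_ (H353.growth (S.probq hg) S.hν hc (S.q_le hg) (S.F.P.W S.F.n) S.ln
    (S.p.nT * g ^ Λ) ?_ (s := c₂ * g) (fun t ht => S.sur t.2 (S.Q_pos' (S.q_pos' ht))))
  swap
  · intro ω _
    refine card_filter_le_of _ _ fun A hA => ?_
    refine le_trans (card_le_card ?_) (S.act_q ω)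
    intro k hk
    exact mem_filter.2 ⟨mem_univ _, hA k hk⟩
  have h4 : log ((Λ : ℝ) / (S.p.nT * S.J1) * ((S.p.nT * g ^ Λ : ℕ) : ℝ)) ≤ S.lcN := by
    have h5 : (Λ : ℝ) / (S.p.nT * S.J1) * ((S.p.nT * g ^ Λ : ℕ) : ℝ) =
        Λ ^ 2 * (1 + log g) * (g ^ Λ / g) := by
      unfold J1
      push_cast
      field_simp
    have h6 : (Λ : ℝ) ^ 2 * (1 + log g) * (g ^ Λ / g) ≤ Λ ^ 2 * exp (log g) * g ^ Λ := by
      have e1 : 1 + log (g : ℝ) ≤ exp (log g) := by
        have := add_one_le_exp (log (g : ℝ))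
        linarith
      have e2 : (g : ℝ) ^ Λ / g ≤ g ^ Λ := div_le_self (by positivity) hg'
      have e3 : (0 : ℝ) ≤ 1 + log g := by linarith
      gcongr
    have h7 : log ((Λ : ℝ) ^ 2 * exp (log g) * g ^ Λ) = 2 * log Λ + (Λ + 1) * log g := by
      rw [log_mul (by positivity) (by positivity), log_mul (by positivity) (by positivity),
        log_exp, log_pow, log_pow]
      push_cast
      ring
    rw [h5]
    have h8 : 0 < (Λ : ℝ) ^ 2 * (1 + log g) * (g ^ Λ / g) := by positivity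
    have h9 := log_le_log h8 h6
    rw [h7] at h9
    unfold lcN
    linarith
  linarith

theorem lab_q {a : S.p.Col × S.Ω} (h : 0 < S.q a) : 0 < S.μ a.2 := S.Q_pos' (S.q_pos' h)

/-- **hmend** for `Q` -/
theorem mendQ (hg : 1 ≤ g) (u : ℝ) (γ : ℕ) :
    Hc S.Q (Rt S.F S.ln S.p u γ (S.F.P.T + s₀))
      (fun a => (S.F.D u (S.F.P.T + s₀) a.2, a.1)) ≤ e * g + e * g :=
  mend_le S.F S.ln S.p S.lam (S.probQ hg) S.hμ S.hν (fun _ h => S.Q_pos' h)
    (fun _ h => S.ν_pos (S.Q_pos' h)) S.big (fun a h => S.lab a.2 (S.Q_pos' h)) u s₀ γ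

/-- **hmend** for `q` -/
theorem mendq (hg : 1 ≤ g) (u : ℝ) (γ : ℕ) :
    Hc S.q (Rt S.F S.ln S.p u γ (S.F.P.T + s₀))
      (fun a => (S.F.D u (S.F.P.T + s₀) a.2, a.1)) ≤ e * g + e * g :=
  mend_le S.F S.ln S.p S.lam (S.probq hg) S.hμ S.hν (fun _ h => S.lab_q h)
    (fun _ h => S.ν_pos (S.lab_q h)) (fun a h => S.big a (S.q_pos' h))
    (fun a h => S.lab a.2 (S.lab_q h)) u s₀ γ

theorem log_leaves_B : log (#(univ.image (S.F.P.W S.F.n))) ≤ 2 * g * log B₀ := by
  have h1 := S.leaves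
  have h2 : 0 < #(univ.image (S.F.P.W S.F.n)) := card_pos.2 (univ_nonempty.image _)
  have h3 : (0 : ℝ) < #(univ.image (S.F.P.W S.F.n)) := by exact_mod_cast h2
  calc log (#(univ.image (S.F.P.W S.F.n))) ≤ log ((B₀ : ℝ) ^ (2 * g)) := by
        apply log_le_log h3
        exact_mod_cast h1
    _ = 2 * g * log B₀ := by
        rw [log_pow]
        push_cast
        ring

end Sys

end Vale.Agent.P065.H806
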