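import Vale.Agent.P065.H806.Close

/-!
# P065: assembly, case (II) from the package statements (helper806)
-/

set_option autoImplicit false

open Finset Real

noncomputable section

namespace Vale.Agent.P065.H806

open Vale.Agent.P065.UB Vale.Agent.P065.Ent Vale.Agent.P065.H268 Vale.Agent.P065.H154
  Vale.Agent.P065.H700

/-- three functionals -/
lemma exists_u {F1 F2 F3 : ℝ → ℝ} {a1 a2 a3 : ℝ} (h1 : ∀ u, 0 ≤ F1 u) (h2 : ∀ u, 0 ≤ F2 u)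
    (h3 : ∀ u, 0 ≤ F3 u) (p1 : 0 < a1) (p2 : 0 < a2) (p3 : 0 < a3) (k1 : AvLe F1 a1)
    (k2 : AvLe F2 a2) (k3 : AvLe F3 a3) :
    ∃ u, F1 u ≤ 3 * a1 ∧ F2 u ≤ 3 * a2 ∧ F3 u ≤ 3 * a3 := by
  obtain ⟨R, i, -, -, hu⟩ := exists_shift_of_avLe (univ : Finset (Fin 3))
    (fun k => match k with | 0 => F1 | 1 => F2 | 2 => F3)
    (fun k => match k with | 0 => a1 | 1 => a2 | 2 => a3)
    (by intro k _ u; fin_cases k; exacts [h1 u, h2 u, h3 u])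
    (by intro k _; fin_cases k; exacts [p1, p2, p3])
    (by intro k _; fin_cases k; exacts [k1, k2, k3]) 0
  refine ⟨sh R i, ?_, ?_, ?_⟩
  · have := hu 0 (mem_univ _)
    simpa using this
  · have := hu 1 (mem_univ _)
    simpa using this
  · have := hu 2 (mem_univ _)
    simpa using this

lemma num3 {γ γ' : ℕ} {y e g lB : ℝ} (h : γ' ≤ γ) (hy : 1 ≤ y) (he : 0 < e) (hg : 0 < g)
    (hlB : 0 ≤ lB) (hγ' : 8 * y * lB ≤ 2 ^ γ' * e) : 4 / 2 ^ γ * (2 * g * lB) ≤ e * g := by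
  have h1 : (2 : ℝ) ^ γ' ≤ 2 ^ γ := pow_le_pow_right₀ (by norm_num) h
  have h2 : (0 : ℝ) < 2 ^ γ := by positivity
  rw [div_mul_eq_mul_div, div_le_iff₀ h2]
  have h3 : 8 * lB ≤ 8 * y * lB := by nlinarith
  have h4 : 8 * lB ≤ 2 ^ γ * e := by nlinarith
  nlinarith

lemma num6 {e g F : ℝ} (he : 0 < e) (hg : 0 < g) (hF : 0 ≤ F) (h : F ≤ 3 * (e / 8 * g)) :
    log 2 * (e / 8 * g + F) ≤ e * g := by
  have hlog2' : log 2 ≤ 1 := by
    have := Real.log_two_lt_d9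
    linarith
  have hlog2 : 0 < log 2 := log_pos (by norm_num)
  have h1 : e / 8 * g + F ≤ e * g := by nlinarith [mul_pos he hg]
  have h2 : 0 ≤ e / 8 * g + F := by positivity
  nlinarith

lemma num7 {C K e g n ε₂ F : ℝ} (hC : 0 ≤ C) (hK : 0 < K) (he : 0 < e) (hg : 0 < g) (hn : 0 ≤ n)
    (hε : ε₂ = e / (C + 1)) (hKn : K * n ≤ g) (hF0 : 0 ≤ F)
    (hF : F ≤ 3 * (e / (2 * (C + 1)) * g / K)) :
    log 2 * ((C * K) * (ε₂ * n + e / (2 * (C + 1)) * g / K + F)) ≤ 4 * e * g := by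
  have hlog2' : log 2 ≤ 1 := by
    have := Real.log_two_lt_d9
    linarith
  have hlog2 : 0 < log 2 := log_pos (by norm_num)
  have hC1 : 0 < C + 1 := by linarith
  have hε0 : 0 < ε₂ := by rw [hε]; positivity
  have e1 : C * ε₂ ≤ e := by
    rw [hε, mul_div_assoc', div_le_iff₀ hC1]
    nlinarith
  have e2 : C * (e / (2 * (C + 1))) ≤ e / 2 := by
    rw [mul_div_assoc', div_le_iff₀ (by positivity)]
    nlinarith
  have h3 : C * K * (ε₂ * n) ≤ e * g := by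
    calc C * K * (ε₂ * n) = (C * ε₂) * (K * n) := by ring
      _ ≤ e * g := mul_le_mul e1 hKn (by positivity) he.le
  have h4 : C * K * (e / (2 * (C + 1)) * g / K) ≤ e / 2 * g := by
    have e3 : C * K * (e / (2 * (C + 1)) * g / K) = (C * (e / (2 * (C + 1)))) * g := by
      field_simp
    rw [e3]
    exact mul_le_mul_of_nonneg_right e2 hg.le
  have h5 : C * K * F ≤ 3 * (e / 2 * g) := by
    calc C * K * F ≤ C * K * (3 * (e / (2 * (C + 1)) * g / K)) :=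
          mul_le_mul_of_nonneg_left hF (by positivity)
      _ = 3 * (C * K * (e / (2 * (C + 1)) * g / K)) := by ring
      _ ≤ 3 * (e / 2 * g) := mul_le_mul_of_nonneg_left h4 (by norm_num)
  have h6 : C * K * (ε₂ * n + e / (2 * (C + 1)) * g / K + F) ≤ 3 * e * g := by
    calc _ = C * K * (ε₂ * n) + C * K * (e / (2 * (C + 1)) * g / K) + C * K * F := by ring
      _ ≤ e * g + e / 2 * g + 3 * (e / 2 * g) := by linarith
      _ = 3 * e * g := by ring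
  have h7 : 0 ≤ C * K * (ε₂ * n + e / (2 * (C + 1)) * g / K + F) := by positivity
  have h8 : log 2 * (C * K * (ε₂ * n + e / (2 * (C + 1)) * g / K + F)) ≤
      1 * (C * K * (ε₂ * n + e / (2 * (C + 1)) * g / K + F)) :=
    mul_le_mul_of_nonneg_right hlog2' h7
  have h9 : 0 < e * g := mul_pos he hg
  linarith

lemma num8 {L y ci e g F : ℝ} (hL : 0 ≤ L) (hci : 0 < ci) (hy : y = L * ci + 1) (he : 0 < e)
    (hg : 0 < g) (hF0 : 0 ≤ F) (hF : F ≤ 3 * (e / (4 * y) * g)) :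
    log 2 * (L * (ci * (e / (4 * y) * g + F))) ≤ e * g := by
  have hlog2' : log 2 ≤ 1 := by
    have := Real.log_two_lt_d9
    linarith
  have hLc : 0 ≤ L * ci := by positivity
  have hy0 : 0 < y := by linarith
  have h1 : L * (ci * (e / (4 * y) * g + F)) ≤ e * g := by
    have h2 : e / (4 * y) * g + F ≤ e * g / y := by
      have h3 : e / (4 * y) * g + 3 * (e / (4 * y) * g) = e * g / y := by
        field_simp
        ring
      linarith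
    calc L * (ci * (e / (4 * y) * g + F)) = L * ci * (e / (4 * y) * g + F) := by ring
      _ ≤ L * ci * (e * g / y) := mul_le_mul_of_nonneg_left h2 hLc
      _ ≤ y * (e * g / y) := mul_le_mul_of_nonneg_right (by linarith) (by positivity)
      _ = e * g := by field_simp
  have h5 : 0 ≤ L * (ci * (e / (4 * y) * g + F)) := by positivity
  have h8 : log 2 * (L * (ci * (e / (4 * y) * g + F))) ≤ 1 * (L * (ci * (e / (4 * y) * g + F))) :=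
    mul_le_mul_of_nonneg_right hlog2' h5
  linarith

lemma num9 {L y ci e g lB : ℝ} {γ' : ℕ} (hL : 0 ≤ L) (hci : 0 < ci) (hy : y = L * ci + 1)
    (hg : 0 < g) (hlB : 0 ≤ lB) (hγ' : 8 * y * lB ≤ 2 ^ γ' * e) :
    log 2 * (L * (ci * (4 / 2 ^ γ' * (2 * g * lB)))) ≤ e * g := by
  have hlog2' : log 2 ≤ 1 := by
    have := Real.log_two_lt_d9
    linarith
  have hLc : 0 ≤ L * ci := by positivity
  have h2 : (0 : ℝ) < 2 ^ γ' := by positivity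
  have h1 : L * (ci * (4 / 2 ^ γ' * (2 * g * lB))) ≤ e * g := by
    have h3 : L * (ci * (4 / 2 ^ γ' * (2 * g * lB))) = (L * ci) * (8 * lB) * g / 2 ^ γ' := by ring
    rw [h3, div_le_iff₀ h2]
    have h5 : (L * ci) * (8 * lB) ≤ y * (8 * lB) :=
      mul_le_mul_of_nonneg_right (by linarith) (by positivity)
    nlinarith
  have h5 : 0 ≤ L * (ci * (4 / 2 ^ γ' * (2 * g * lB))) := by positivity
  have h8 : log 2 * (L * (ci * (4 / 2 ^ γ' * (2 * g * lB)))) ≤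
      1 * (L * (ci * (4 / 2 ^ γ' * (2 * g * lB)))) :=
    mul_le_mul_of_nonneg_right hlog2' h5
  linarith

lemma num10 {L e g lB ps X : ℝ} (hL : 0 ≤ L) (he : 0 < e) (hg : 1 ≤ g) (hlB : 0 ≤ lB)
    (hps : 0 < ps) (hX : X = 1 + (2 * lB + 2 * e) / ps) :
    log 2 * (L * (e / ((L + 1) * X) * (1 + (2 * g * lB + (e * g + e * g)) / ps))) ≤ e * g := by
  have hlog2' : log 2 ≤ 1 := by
    have := Real.log_two_lt_d9
    linarith
  have hX0 : 0 < X := by rw [hX]; positivity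
  have h1 : L * (e / ((L + 1) * X) * (1 + (2 * g * lB + (e * g + e * g)) / ps)) ≤ e * g := by
    have h2 : 1 + (2 * g * lB + (e * g + e * g)) / ps ≤ X * g := by
      rw [hX, add_mul, one_mul, div_mul_eq_mul_div]
      have h3 : (2 * g * lB + (e * g + e * g)) = (2 * lB + 2 * e) * g := by ring
      rw [h3]
      linarith
    calc L * (e / ((L + 1) * X) * (1 + (2 * g * lB + (e * g + e * g)) / ps)) ≤
        (L + 1) * (e / ((L + 1) * X) * (X * g)) := by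
          apply mul_le_mul (by linarith) _ (by positivity) (by positivity)
          exact mul_le_mul_of_nonneg_left h2 (by positivity)
      _ = e * g := by field_simp
  have h5 : 0 ≤ L * (e / ((L + 1) * X) * (1 + (2 * g * lB + (e * g + e * g)) / ps)) := by
    positivity
  have h8 : log 2 * (L * (e / ((L + 1) * X) * (1 + (2 * g * lB + (e * g + e * g)) / ps))) ≤
      1 * (L * (e / ((L + 1) * X) * (1 + (2 * g * lB + (e * g + e * g)) / ps))) :=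
    mul_le_mul_of_nonneg_right hlog2' h5
  linarith

/-- one system, with the inputs of the packages -/
theorem Sys.absurd {B₀ K₁ PP Γ s₀ Λ kN : ℕ} {c₂ ρ ε₂ e : ℝ} {n g : ℕ}
    (S : Sys B₀ K₁ PP Γ s₀ Λ kN c₂ ρ ε₂ e n g) (hg : 1 ≤ g) (hB : 1 ≤ B₀) (hK : 1 ≤ K₁)
    (he : 0 < e) (hce : 20 * e ≤ c₂) (hε₂ : ε₂ = e / ((CB B₀ : ℝ) + 1))
    (hK36 : log 36 ≤ e * K₁)
    {γ γ' PB g₀ A₀ : ℕ} (hγ : γ ≤ Γ) (hγ' : γ' ≤ γ) {ρ' c ps y X : ℝ} (hρ' : 0 ≤ ρ')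
    (hρ'1 : ρ' ≤ 1) (hc : 0 < c) (hps : 0 < ps) (hy : y = (CB B₀ * K₁ : ℕ) * c⁻¹ + 1)
    (hγy : 8 * y * log B₀ ≤ 2 ^ γ' * e) (hX : X = 1 + (2 * log B₀ + 2 * e) / ps)
    (hA₀ : ∀ n₀ : ℕ, ∑ i ∈ Icc A₀ n₀, 2 * (i : ℝ) * (exp c * ρ') ^ i ≤
      e / ((((CB B₀ * K₁ : ℕ) : ℝ) + 1) * X))
    (n1 : S.lcN ≤ e * g)
    (n4 : log 4 + log 9 + log 2 * (g₀ + (CB B₀ * K₁ : ℕ) * (2 + A₀)) ≤ e * g)
    {F1 F2 F3 : ℝ → ℝ} (hF1 : ∀ u, 0 ≤ F1 u) (hF2 : ∀ u, 0 ≤ F2 u) (hF3 : ∀ u, 0 ≤ F3 u)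
    (k1 : AvLe F1 (e / (2 * ((CB B₀ : ℝ) + 1)) * g / K₁)) (k2 : AvLe F2 (e / (4 * y) * g))
    (k3 : AvLe F3 (e / 8 * g))
    (hbad : ∀ u, S.bad u γ' g₀ ρ' ≤ ε₂ * n + e / (2 * ((CB B₀ : ℝ) + 1)) * g / K₁ + F1 u)
    (hthin : ∀ u, S.thin u γ' PB ps ≤ e / (4 * y) * g + F2 u)
    (hrows : ∀ u, ∃ cov : S.p.Col × S.Ω → ℝ,
      Det (rb S.F S.ln S.p S.lam) cov ∧
      log 2 * ∑ a, S.Q a * cov a - e / 8 * g ≤ ∑ t ∈ range (S.F.P.T + s₀),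
        Hc S.Q (Rt S.F S.ln S.p u γ (t + 1))
          (fun a => (S.F.D u (t + 1) a.2, Rt S.F S.ln S.p u γ t a)) ∧
      ∑ a, S.q a * (#(Cov (S.Pf u) (S.th u γ' PB ps) (g₀ + CB B₀ * K₁ * (2 + A₀)) a) : ℝ) ≤
        ∑ a, S.q a * cov a + e / 8 * g + F3 u) : False := by
  have hgp : (0 : ℝ) < g := by exact_mod_cast hg
  have hg1 : (1 : ℝ) ≤ g := by exact_mod_cast hg
  have hKp : (0 : ℝ) < K₁ := by exact_mod_cast hK
  have hCB : (0 : ℝ) ≤ (CB B₀ : ℝ) := Nat.cast_nonneg _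
  have hL : (0 : ℝ) ≤ ((CB B₀ * K₁ : ℕ) : ℝ) := Nat.cast_nonneg _
  have hlB : 0 ≤ log (B₀ : ℝ) := log_nonneg (by exact_mod_cast hB)
  have hci : 0 < c⁻¹ := by positivity
  have hy0 : 1 ≤ y := by
    rw [hy]
    have : 0 ≤ ((CB B₀ * K₁ : ℕ) : ℝ) * c⁻¹ := by positivity
    linarith
  have hy1 : 0 < y := by linarith
  have hX0 : 0 < X := by rw [hX]; positivity
  obtain ⟨u, hu1, hu2, hu3⟩ := exists_u hF1 hF2 hF3 (by positivity) (by positivity)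
    (by positivity) k1 k2 k3
  obtain ⟨cov, hcov, hr, hn⟩ := hrows u
  have hKn : (K₁ : ℝ) * n ≤ g := by exact_mod_cast S.Kn
  have hn0 : (0 : ℝ) ≤ n := Nat.cast_nonneg _
  have hcast : ((CB B₀ * K₁ : ℕ) : ℝ) = CB B₀ * K₁ := by push_cast; ring
  refine S.close hg hB hK he hce hγ (hγ'.trans hγ) u hρ' hρ'1
    (show g₀ + CB B₀ * K₁ * (2 + A₀) ≤ g₀ + CB B₀ * K₁ * (2 + A₀) + 1 by omega) hc (hA₀ _) hps
    (hbad u) (hthin u) cov hcov hr (near := e / 8 * g + F3 u) (by linarith) (by positivity) n1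
    (by nlinarith [mul_pos he hgp]) (num3 hγ' hy0 he hgp hlB hγy) n4 ?_
    (num6 he hgp (hF3 u) hu3) ?_ (num8 hL hci hy he hgp (hF2 u) hu2)
    (num9 hL hci hy hgp hlB hγy) (num10 hL he hg1 hlB hps hX)
  · nlinarith
  · rw [hcast]
    exact num7 hCB hKp he hgp hn0 hε₂ hKn (hF1 u) hu1

/-- **case (II)** from the packages -/
theorem caseII_of (hB : HBad) (hT : HThin) (hR : HRows) : CaseII := by
  intro B₀ c₂ ρ hB₀ hc₂ hρ hρ1
  set e : ℝ := c₂ / 40 with he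
  have he0 : 0 < e := by positivity
  have hB1 : 1 ≤ B₀ := by omega
  have hlB : 0 ≤ log (B₀ : ℝ) := log_nonneg (by exact_mod_cast hB1)
  have hcb : (0 : ℝ) < (CB B₀ : ℝ) + 1 := by positivity
  refine ⟨e / ((CB B₀ : ℝ) + 1), by positivity, max 4 ⌈log 36 / e⌉₊, le_max_left _ _, ?_⟩
  intro K₁ hK₁
  have hK4 : 4 ≤ K₁ := (le_max_left _ _).trans hK₁
  have hK1 : 1 ≤ K₁ := by omega
  have hK36 : log 36 ≤ e * K₁ := by
    have h1 : log 36 / e ≤ K₁ :=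
      (Nat.le_ceil _).trans (by exact_mod_cast (le_max_right 4 ⌈log 36 / e⌉₊).trans hK₁)
    rw [div_le_iff₀ he0] at h1
    linarith
  obtain ⟨ρ', c, hρρ', hρ'1, hc, hcρ⟩ := exists_c hρ hρ1
  have hρ'0 : 0 < ρ' := hρ.trans hρρ'
  obtain ⟨y, hy⟩ : ∃ y : ℝ, y = (CB B₀ * K₁ : ℕ) * c⁻¹ + 1 := ⟨_, rfl⟩
  have hy1 : 0 < y := by rw [hy]; positivity
  -- thin
  obtain ⟨γ₀, hγ₀⟩ := hT B₀ K₁ c₂ ρ (e / ((CB B₀ : ℝ) + 1)) e (e / (4 * y)) hB₀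
    hK1 he0 (by positivity)
  obtain ⟨γ', hγ₀', hγ'⟩ : ∃ γ' : ℕ, γ₀ ≤ γ' ∧ 8 * y * log B₀ / e ≤ 2 ^ γ' := by
    obtain ⟨m, hm⟩ := pow_unbounded_of_one_lt (8 * y * log B₀ / e) one_lt_two
    exact ⟨max γ₀ m, le_max_left _ _,
      hm.le.trans (pow_le_pow_right₀ (by norm_num) (le_max_right _ _))⟩
  rw [div_le_iff₀ he0] at hγ'
  obtain ⟨ps, hps, hps4, PBT, hT1⟩ := hγ₀ γ' hγ₀'
  obtain ⟨X, hX⟩ : ∃ X : ℝ, X = 1 + (2 * log B₀ + 2 * e) / ps := ⟨_, rfl⟩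
  have hX0 : 0 < X := by rw [hX]; positivity
  obtain ⟨A₀, hA₀⟩ := exists_zeta (r := exp c * ρ') (by positivity) hcρ
    (ε := e / ((((CB B₀ * K₁ : ℕ) : ℝ) + 1) * X)) (by positivity)
  -- bad
  obtain ⟨g₀, hg₀⟩ := hB B₀ c₂ ρ ρ' (e / (2 * ((CB B₀ : ℝ) + 1))) hB₀ hρ hρρ' hρ'1 (by positivity)
  obtain ⟨PB, hPB, γ, hγγ', PP₂, Γ₂, σ₂, hγΓ, hγσ, hR1⟩ :=
    hR B₀ K₁ γ' PBT (g₀ + CB B₀ * K₁ * (2 + A₀)) c₂ ρ (e / ((CB B₀ : ℝ) + 1)) e (e / 8) ps hB₀ hK1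
      he0 (by positivity) hps hps4
  obtain ⟨PP₁, Γ₁, σ₁, hT2⟩ := hT1 PB hPB
  refine ⟨max PP₁ PP₂, max Γ₁ Γ₂, max σ₁ σ₂, ?_⟩
  intro PP hPP Γ hΓ s₀ hs₀ Λ
  have hγ1 : γ ≤ Γ := hγΓ.trans ((le_max_right _ _).trans hΓ)
  have hγ'2 : γ' ≤ s₀ := (hγγ'.trans hγσ).trans ((le_max_right _ _).trans hs₀)
  obtain ⟨kN₀, hT3⟩ := hT2 PP ((le_max_left _ _).trans hPP) Γ ((le_max_left _ _).trans hΓ) s₀
    ((le_max_left _ _).trans hs₀) (hγγ'.trans hγ1) hγ'2 Λ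
  refine ⟨kN₀, ?_⟩
  intro kN hkN
  obtain ⟨gT, hT4⟩ := hT3 kN hkN
  obtain ⟨gR, hR2⟩ := hR1 PP ((le_max_right _ _).trans hPP) Γ ((le_max_right _ _).trans hΓ) s₀
    ((le_max_right _ _).trans hs₀) Λ kN
  obtain ⟨gB, hB2⟩ := hg₀ K₁ hK1 γ' PP Γ s₀ Λ kN (hγγ'.trans hγ1) hγ'2
  obtain ⟨g5, hg5⟩ := ev_log (Λ + 1) (2 * log Λ + 1) he0
  obtain ⟨g6, hg6⟩ := ev_log 0 (log 4 + log 9 + log 2 * (g₀ + (CB B₀ * K₁ : ℕ) * (2 + A₀))) he0
  refine ⟨max 1 (max gT (max gR (max gB (max g5 g6)))), ?_⟩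
  intro n g hg S
  obtain ⟨hg1, hg'⟩ := max_le_iff.1 hg
  obtain ⟨hgT, hg'⟩ := max_le_iff.1 hg'
  obtain ⟨hgR, hg'⟩ := max_le_iff.1 hg'
  obtain ⟨hgB, hg'⟩ := max_le_iff.1 hg'
  obtain ⟨hgg5, hgg6⟩ := max_le_iff.1 hg'
  have hgp : (0 : ℝ) < g := by exact_mod_cast hg1
  obtain ⟨F1, hF1, hF1a, hF1b⟩ := hB2 (e / ((CB B₀ : ℝ) + 1)) e n g (by positivity) hgB S
  obtain ⟨F2, hF2, hF2a, hF2b⟩ := hT4 n g hgT S
  obtain ⟨F3, hF3, hF3a, hF3b⟩ := hR2 n g hgR S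
  have n4 := hg6 g hgg6
  rw [zero_mul, zero_add] at n4
  have n1 : S.lcN ≤ e * g := by
    have := hg5 g hgg5
    unfold Sys.lcN
    linarith
  exact S.absurd hg1 hB1 hK1 he0 (by rw [he]; linarith) rfl hK36 hγ1 hγγ' hρ'0.le hρ'1.le hc hps
    hy hγ' hX hA₀ n1 n4 hF1 hF2 hF3 hF1a hF2a hF3a hF1b hF2b hF3b

end Vale.Agent.P065.H806
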