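import Vale.Agent.P065.H806.Case2

/-!
# P065: assembly, case (II): the bookkeeping theorem for one system (helper806)
-/

set_option autoImplicit false

open Finset Real

noncomputable section

namespace Vale.Agent.P065.H806

open Vale.Agent.P065.UB Vale.Agent.P065.Ent Vale.Agent.P065.H268 Vale.Agent.P065.H154
  Vale.Agent.P065.H700

namespace Sys

variable {B₀ K₁ PP Γ s₀ Λ kN : ℕ} {c₂ ρ ε₂ e : ℝ} {n g : ℕ}
  (S : Sys B₀ K₁ PP Γ s₀ Λ kN c₂ ρ ε₂ e n g)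

open Classical in
/-- **the book of one system** -/
theorem book (hg : 1 ≤ g) (hB : 1 ≤ B₀) (hK : 1 ≤ K₁) {γ γ' PB g₀ A₀ M : ℕ} (hγ : γ ≤ Γ)
    (hγ' : γ' ≤ Γ) {ρ' c ps ζ : ℝ} (u : ℝ) (hρ' : 0 ≤ ρ') (hρ'1 : ρ' ≤ 1)
    (hMg : g₀ + CB B₀ * K₁ * (2 + A₀) ≤ M + 1) (hc : 0 < c)
    (hζ : ∑ i ∈ Icc A₀ S.F.n, 2 * (i : ℝ) * (exp c * ρ') ^ i ≤ ζ) (hps : 0 < ps)
    {bad thin near err : ℝ} (hbad : S.bad u γ' g₀ ρ' ≤ bad) (hthin : S.thin u γ' PB ps ≤ thin)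
    (cov : S.p.Col × S.Ω → ℝ) (hcov : Det (rb S.F S.ln S.p S.lam) cov)
    (hrows : log 2 * ∑ a, S.Q a * cov a - err ≤ ∑ t ∈ range (S.F.P.T + s₀),
        Hc S.Q (Rt S.F S.ln S.p u γ (t + 1))
          (fun a => (S.F.D u (t + 1) a.2, Rt S.F S.ln S.p u γ t a)))
    (hnear : ∑ a, S.q a * #(Cov (S.Pf u) (S.th u γ' PB ps) M a) ≤ ∑ a, S.q a * cov a + near) :
    c₂ * g - S.lcN ≤ (e * g + e * g) + err +
      4 / 2 ^ γ * log (#(univ.image (S.F.P.W S.F.n))) + log 4 + S.F.n * log 36 + log 9 +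
      log 2 * (near + (CB B₀ * K₁ : ℕ) * bad +
      (CB B₀ * K₁ : ℕ) * (c⁻¹ * (thin + 4 / 2 ^ γ' * log (#(univ.image (S.F.P.W S.F.n)))) +
        ζ * (1 + (log (#(univ.image (S.F.P.W S.F.n))) + (e * g + e * g)) / ps)) +
        (g₀ + (CB B₀ * K₁ : ℕ) * (2 + A₀))) := by
  have hq := S.probq hg
  have hQ := S.probQ hg
  have hB0 : 0 < B₀ ^ (2 * K₁) := by positivity
  refine bookF_conv (lam := S.lam) (Q := S.Q) u s₀ γ γ' (hγ.trans S.Γ_le) (hγ'.trans S.Γ_le)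
    S.M_ge hQ hq S.same S.perq S.top hB0 (fun j _ ω => S.lbl u j ω) (CB_spec hB hK)
    (S.th u γ' PB ps) (fun t a a' h h' => H819.Th_congr t a a' h h') hρ' hρ'1 g₀ A₀ M hMg hc hζ
    (fun _ _ => 1) (fun _ _ _ _ _ => rfl) (fun _ _ => zero_le_one) (fun _ _ => le_rfl)
    cov hcov (S.hG hg) (S.mendQ hg u γ) hrows hnear hbad ?_ ?_ (r0F u γ hq)
  · refine le_trans (le_of_eq ?_) hthin
    unfold Sys.thin
    refine sum_congr rfl fun a _ => ?_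
    congr 1
    refine sum_congr rfl fun t _ => ?_
    rw [one_mul, sub_self, zero_mul, add_zero]
  · exact thkF u s₀ γ' hq hps (S.th u γ' PB ps) (fun t a _ ha h => H819.Th_ka hq t a ha h)
      (S.mendq hg u γ')

/-- **no system**, if the numbers are right -/
theorem close (hg : 1 ≤ g) (hB : 1 ≤ B₀) (hK : 1 ≤ K₁) (he : 0 < e) (hce : 20 * e ≤ c₂)
    {γ γ' PB g₀ A₀ M : ℕ} (hγ : γ ≤ Γ)
    (hγ' : γ' ≤ Γ) {ρ' c ps ζ : ℝ} (u : ℝ) (hρ' : 0 ≤ ρ') (hρ'1 : ρ' ≤ 1)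
    (hMg : g₀ + CB B₀ * K₁ * (2 + A₀) ≤ M + 1) (hc : 0 < c)
    (hζ : ∑ i ∈ Icc A₀ S.F.n, 2 * (i : ℝ) * (exp c * ρ') ^ i ≤ ζ) (hps : 0 < ps)
    {bad thin near err : ℝ} (hbad : S.bad u γ' g₀ ρ' ≤ bad) (hthin : S.thin u γ' PB ps ≤ thin)
    (cov : S.p.Col × S.Ω → ℝ) (hcov : Det (rb S.F S.ln S.p S.lam) cov)
    (hrows : log 2 * ∑ a, S.Q a * cov a - err ≤ ∑ t ∈ range (S.F.P.T + s₀),
        Hc S.Q (Rt S.F S.ln S.p u γ (t + 1))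
          (fun a => (S.F.D u (t + 1) a.2, Rt S.F S.ln S.p u γ t a)))
    (hnear : ∑ a, S.q a * (#(Cov (S.Pf u) (S.th u γ' PB ps) M a) : ℝ) ≤
      ∑ a, S.q a * cov a + near)
    -- numbers
    (hζ0 : 0 ≤ ζ) (n1 : S.lcN ≤ e * g) (n2 : err ≤ e * g)
    (n3 : 4 / 2 ^ γ * (2 * g * log B₀) ≤ e * g)
    (n4 : log 4 + log 9 + log 2 * (g₀ + (CB B₀ * K₁ : ℕ) * (2 + A₀)) ≤ e * g)
    (n5 : n * log 36 ≤ e * g) (n6 : log 2 * near ≤ e * g)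
    (n7 : log 2 * ((CB B₀ * K₁ : ℕ) * bad) ≤ 4 * e * g)
    (n8 : log 2 * ((CB B₀ * K₁ : ℕ) * (c⁻¹ * thin)) ≤ e * g)
    (n9 : log 2 * ((CB B₀ * K₁ : ℕ) * (c⁻¹ * (4 / 2 ^ γ' * (2 * g * log B₀)))) ≤ e * g)
    (n10 : log 2 * ((CB B₀ * K₁ : ℕ) *
      (ζ * (1 + (2 * g * log B₀ + (e * g + e * g)) / ps))) ≤ e * g) : False := by
  have h := S.book hg hB hK hγ hγ' u hρ' hρ'1 hMg hc hζ hps hbad hthin cov hcov hrows hnear
  have hl := S.log_leaves_B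
  have hlog2 : 0 < log 2 := log_pos (by norm_num)
  have hg0 : (0 : ℝ) < g := by exact_mod_cast hg
  have hL : (0 : ℝ) ≤ (CB B₀ * K₁ : ℕ) := Nat.cast_nonneg _
  have hci : 0 ≤ c⁻¹ := by positivity
  have hn : (S.F.n : ℝ) = n := by rw [S.n_eq]
  refine final_arith hg0 he hce h (by linarith) (by linarith) n2 ?_ (by linarith) ?_ n6 n7 n8 ?_ ?_
  · refine le_trans ?_ n3
    exact mul_le_mul_of_nonneg_left hl (by positivity)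
  · rw [hn]
    exact n5
  · refine le_trans ?_ n9
    gcongr
  · refine le_trans ?_ n10
    gcongr

end Sys

end Vale.Agent.P065.H806
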