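import Vale.Agent.P065.H154.Frame
import Vale.Agent.P065.H353.Bad

/-!
# P065: assembly, simple inputs of the bookkeeping theorem on the FRAME (helper806)

* `Hc_cross`: Gibbs inequality with a reference law on the flags;
* `hsame`: `Q` and `Qs` have the same law of the fine box;
* `mend_le`, `r0_le`, `thick_le`: the inputs `mend`, `r₀`, `thk`.
-/

set_option autoImplicit false

open Finset Real

noncomputable section

namespace Vale.Agent.P065.H806

open Vale.Agent.P065.Ent Vale.Agent.P065.H268 Vale.Agent.P065.H154 Vale.Agent.P065.H700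

section gen

variable {Ω κ : Type*} [Fintype Ω] [Fintype κ] {α β L : Type*}

omit [Fintype κ] in
lemma sum_Pr_pair_le {ν : Ω → ℝ} (hν : IsProb ν) (X : Ω → α) (Z : Ω → β) (z : β)
    (s : Finset α) : ∑ x ∈ s, Pr ν (fun ω => (X ω, Z ω)) (x, z) ≤ Pr ν Z z := by
  classical
  unfold Pr
  rw [sum_comm]
  refine sum_le_sum fun ω _ => ?_
  have h2 : 0 ≤ if Z ω = z then ν ω else 0 := by
    split_ifs
    · exact hν.nonneg ω
    · exact le_rfl
  calc _ ≤ ∑ x ∈ s, (if X ω = x then (if Z ω = z then ν ω else 0) else 0) := by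
        refine sum_le_sum fun x _ => ?_
        by_cases hx : X ω = x
        · rw [if_pos hx]
          by_cases hz : Z ω = z
          · rw [if_pos hz]
            split_ifs
            · exact le_rfl
            · exact hν.nonneg ω
          · rw [if_neg hz, if_neg (fun h => hz (Prod.mk.inj h).2)]
        · rw [if_neg hx, if_neg (fun h => hx (Prod.mk.inj h).1)]
    _ ≤ _ := by
        rw [sum_ite_eq]
        by_cases hs : X ω ∈ s
        · rw [if_pos hs]
        · rw [if_neg hs]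
          exact h2

/-- **Gibbs inequality with a reference law on the flags** -/
theorem Hc_cross {Q : κ × Ω → ℝ} (hQ : IsProb Q) {ν : Ω → ℝ} (hν : IsProb ν)
    (hac : ∀ p, 0 < Q p → 0 < ν p.2) (X : κ → Ω → α) (Z : Ω → β) :
    Hc Q (fun p => X p.1 p.2) (fun p => (Z p.2, p.1)) ≤
      ∑ p, Q p * (-log (Pr ν (fun ω => (X p.1 ω, Z ω)) (X p.1 p.2, Z p.2) / Pr ν Z (Z p.2))) := by
  classical
  refine gibbs hQ (fun p => X p.1 p.2) (fun p : κ × Ω => (Z p.2, p.1))
    (fun y x => Pr ν (fun ω => (X y.2 ω, Z ω)) (x, y.1) / Pr ν Z y.1) ?_ ?_ ?_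
  · intro p hp
    have p1 := Pr_pos hν (fun ω => (X p.1 ω, Z ω)) (hac p hp)
    have p2 := Pr_pos hν Z (hac p hp)
    exact div_pos p1 p2
  · intro p x _
    exact div_nonneg (Pr_nonneg hν _ _) (Pr_nonneg hν _ _)
  · intro p
    rw [← sum_div]
    exact div_le_one_of_le₀ (sum_Pr_pair_le hν (X p.1) Z (Z p.2) _) (Pr_nonneg hν _ _)

/-- a pointwise bound of the surprise bounds the conditional entropy -/
theorem Hc_cross_le {Q : κ × Ω → ℝ} (hQ : IsProb Q) {ν : Ω → ℝ} (hν : IsProb ν)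
    (hac : ∀ p, 0 < Q p → 0 < ν p.2) (X : κ → Ω → α) (Z : Ω → β) {s : ℝ}
    (hs : ∀ p, 0 < Q p →
      exp (-s) * Pr ν Z (Z p.2) ≤ Pr ν (fun ω => (X p.1 ω, Z ω)) (X p.1 p.2, Z p.2)) :
    Hc Q (fun p => X p.1 p.2) (fun p => (Z p.2, p.1)) ≤ s := by
  refine (Hc_cross hQ hν hac X Z).trans ?_
  calc _ ≤ ∑ p, Q p * s := by
        refine sum_le_sum fun p _ => ?_
        rcases (hQ.nonneg p).eq_or_lt with h0 | h0
        · rw [← h0, zero_mul, zero_mul]
        · refine mul_le_mul_of_nonneg_left ?_ h0.le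
          have p2 := Pr_pos hν Z (hac p h0)
          have p1 := Pr_pos hν (fun ω => (X p.1 ω, Z ω)) (hac p h0)
          rw [neg_le, ← log_exp (-s)]
          apply log_le_log (exp_pos _)
          rw [le_div_iff₀ p2]
          exact hs p h0
    _ = s := by rw [← sum_mul, hQ.sum, one_mul]

end gen

/-! ### the law of the fine box -/

section same

variable {Ω : Type*} [Fintype Ω] {κ : Type*} [Fintype κ] {α : Type*}

/-- `Q` and `Qs` have the same law of column and fine box -/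
lemma Pr_Qs (C : Cols Ω κ α) {μ : Ω → ℝ} (hμ : IsProb μ) (s : κ → α → Bool)
    {rb : κ × Ω → κ × α} (hrb : ∀ p, rb p = (p.1, C.ρ p.1 p.2)) (x : κ × α) :
    Pr (C.Qs μ s) rb x = Pr (C.Q μ) rb x := by
  classical
  have h := Cols.sum_Qs (C := C) hμ s (fun k r => if (k, r) = x then 1 else 0)
  have e : ∀ q : κ × Ω → ℝ, Pr q rb x =
      ∑ t : κ × Ω, q t * (if (t.1, C.ρ t.1 t.2) = x then (1 : ℝ) else 0) := by
    intro q
    unfold Pr
    refine sum_congr rfl fun t _ => ?_
    rw [hrb]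
    by_cases hx : (t.1, C.ρ t.1 t.2) = x
    · rw [if_pos hx, if_pos hx, mul_one]
    · rw [if_neg hx, if_neg hx, mul_zero]
  rw [e, e]
  exact h

/-- support of `Q` -/
lemma Q_pos {C : Cols Ω κ α} {μ : Ω → ℝ} (hμ : IsProb μ) {t : κ × Ω} (h : 0 < C.Q μ t) :
    0 < μ t.2 := by
  rcases (hμ.nonneg t.2).eq_or_lt with h0 | h0
  · unfold Cols.Q at h
    rw [← h0, zero_mul, zero_div] at h
    exact absurd h (lt_irrefl _)
  · exact h0

lemma Qs_pos {C : Cols Ω κ α} {μ : Ω → ℝ} (hμ : IsProb μ) {s : κ → α → Bool} {t : κ × Ω}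
    (h : 0 < C.Qs μ s t) : 0 < C.Q μ t := by
  rcases (Cols.Q_nonneg (C := C) hμ t).eq_or_lt with h0 | h0
  · unfold Cols.Qs at h
    rw [← h0, mul_zero] at h
    split_ifs at h <;> exact absurd h (lt_irrefl _)
  · exact h0

end same

end Vale.Agent.P065.H806
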