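import Vale.Agent.P065.H806.CaseII
import Vale.Agent.P065.H353.HBadP
import Vale.Agent.P065.H344.HThinP
import Vale.Agent.P065.H279.HRowsP
import Vale.Agent.P065.H268.CaseIMain
import Vale.Agent.P065.H725.Split
import Vale.Agent.P065.H859.Top
import Vale.Agent.P065.H547.FinalForm

/-!
# P065: the exponent of the halving lines is one (helper806)
-/

set_option autoImplicit false

namespace Vale.Agent.P065.H806

/-- **case (II)** -/
theorem caseIIP : CaseII := caseII_of H353.hbadP hthinP H279.hrowsP

/-- **the exponent is one** -/
theorem not_one_lt_beta_final : ¬ 1 < H859.beta :=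
  H859.beta_of H268.caseI caseIIP H725.hsplit

end Vale.Agent.P065.H806
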