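import Vale.Agent.P065.H154.FrameThk

/-!
# P065: assembly, constants and arithmetic (helper806)
-/

set_option autoImplicit false

open Finset Real

noncomputable section

namespace Vale.Agent.P065.H806

open Vale.Agent.P065.Ent Vale.Agent.P065.H154 Vale.Agent.P065.H268 Vale.Agent.P065.UB

/-- the constant `CB` with `L₀ = CB K₁` -/
def CB (B₀ : ℕ) : ℕ := ⌈(log 9 + 2 * log B₀) / log 2⌉₊

lemma CB_spec {B₀ : ℕ} (hB : 1 ≤ B₀) {K₁ : ℕ} (hK : 1 ≤ K₁) :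
    log (9 * (B₀ ^ (2 * K₁) : ℕ)) ≤ (CB B₀ * K₁ : ℕ) * log 2 := by
  have hlog2 : 0 < log 2 := log_pos (by norm_num)
  have h1 : (log 9 + 2 * log B₀) / log 2 ≤ CB B₀ := Nat.le_ceil _
  rw [div_le_iff₀ hlog2] at h1
  have hB' : (0 : ℝ) < B₀ := by exact_mod_cast hB
  have h2 : log (9 * (B₀ ^ (2 * K₁) : ℕ)) = log 9 + 2 * K₁ * log B₀ := by
    push_cast
    rw [log_mul (by norm_num) (by positivity), log_pow]
    push_cast
    ring
  have hK' : (1 : ℝ) ≤ K₁ := by exact_mod_cast hK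
  have h3 : 0 ≤ log 9 := log_nonneg (by norm_num)
  have h4 : 0 ≤ log (B₀ : ℝ) := log_nonneg (by exact_mod_cast hB)
  rw [h2]
  push_cast
  nlinarith

lemma CB_mul_le {B₀ K₁ n g : ℕ} (h : K₁ * n ≤ g) : CB B₀ * K₁ * n ≤ CB B₀ * g := by
  rw [mul_assoc]
  exact Nat.mul_le_mul_left _ h

/-- the constants `ρ'`, `c` -/
lemma exists_c {ρ : ℝ} (hρ : 0 < ρ) (hρ1 : ρ < 1) :
    ∃ ρ' c : ℝ, ρ < ρ' ∧ ρ' < 1 ∧ 0 < c ∧ exp c * ρ' < 1 := by
  refine ⟨(1 + ρ) / 2, log (2 / (1 + (1 + ρ) / 2)) , by linarith, by linarith, ?_, ?_⟩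
  · apply log_pos
    rw [lt_div_iff₀ (by linarith)]
    linarith
  · rw [exp_log (by positivity), div_mul_eq_mul_div, div_lt_one (by linarith)]
    linarith

section sums

variable {Ω κ : Type*} [Fintype Ω] [Fintype κ] {β δ : Type*}

/-- sum of the entropies of the rows -/
theorem sum_rows_le {q : Ω → ℝ} (hq : IsProb q) (R : ℕ → Ω → β)
    (hR : ∀ t, Det (R (t + 1)) (R t)) (D : ℕ → Ω → δ) (hRD : ∀ t, Det (R t) (D t)) {γ : Type*}
    (c : Ω → γ) (hc : Det (R 0) c) (T : ℕ) :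
    ∑ t ∈ range T, Hc q (R (t + 1)) (fun ω => (D (t + 1) ω, R t ω)) ≤
      Hc q (D T) c + Hc q (R T) (fun ω => (D T ω, c ω)) := by
  have hcT : ∀ t, Det (R t) c := by
    intro t
    induction t with
    | zero => exact hc
    | succ n ih => exact (hR n).trans ih
  have e1 : ∀ t ∈ range T, Hc q (R (t + 1)) (fun ω => (D (t + 1) ω, R t ω)) ≤
      H q (R (t + 1)) - H q (R t) := by
    intro t _
    have h1 : Hc q (R (t + 1)) (fun ω => (D (t + 1) ω, R t ω)) ≤ Hc q (R (t + 1)) (R t) :=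
      Hc_anti hq _ (det_snd _ _)
    have h2 : Hc q (R (t + 1)) (R t) = H q (R (t + 1)) - H q (R t) :=
      Hc_eq (Det.refl _) (hR t) (det_fst _ _)
    linarith
  have e2 := sum_le_sum e1
  rw [sum_range_sub (fun t => H q (R t)) T] at e2
  have e3 : H q c ≤ H q (R 0) := H_mono hq hc
  have e4 : Hc q (R T) (fun ω => (D T ω, c ω)) = H q (R T) - H q (fun ω => (D T ω, c ω)) :=
    Hc_eq (Det.refl _) ((hRD T).pair (hcT T)) (det_fst _ _)
  have e5 := H_pair q (D T) c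
  linarith

end sums

/-- the relative error of the rows -/
lemma rows_close {cov S X Ht κ : ℝ} (hκ : 0 ≤ κ) (hκ1 : κ ≤ 1 / 2) (hX : 0 ≤ X) (hHt : 0 ≤ Ht)
    (h : (1 - κ) * (log 2 * cov) - X ≤ S) (hS : S ≤ Ht) :
    log 2 * cov - (X + 2 * κ * (Ht + X)) ≤ S := by
  rcases le_total (log 2 * cov) 0 with h0 | h0
  · nlinarith [mul_nonneg hκ (add_nonneg hHt hX)]
  · have h1 : log 2 * cov ≤ 2 * (Ht + X) := by nlinarith
    nlinarith

/-- **the final arithmetic** -/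
lemma final_arith {c₂ e g G₀ mend err a₁ r₀ nl near L₀ bad ci thin a₂ zt r₁ : ℝ} (hg : 0 < g)
    (he : 0 < e) (hce : 20 * e ≤ c₂)
    (h : G₀ ≤ mend + err + a₁ + r₀ + nl + log 9 + log 2 * (near + L₀ * bad +
      L₀ * (ci * (thin + a₂) + zt) + r₁))
    (h0 : c₂ * g - e * g ≤ G₀) (hmend : mend ≤ 2 * e * g) (herr : err ≤ e * g) (ha₁ : a₁ ≤ e * g)
    (hr : r₀ + log 9 + log 2 * r₁ ≤ e * g) (hn : nl ≤ e * g) (hnear : log 2 * near ≤ e * g)
    (hbad : log 2 * (L₀ * bad) ≤ 4 * e * g) (hthin : log 2 * (L₀ * (ci * thin)) ≤ e * g)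
    (ha₂ : log 2 * (L₀ * (ci * a₂)) ≤ e * g) (hzt : log 2 * (L₀ * zt) ≤ e * g) : False := by
  have h1 : 0 < e * g := mul_pos he hg
  have h2 : 20 * e * g ≤ c₂ * g := mul_le_mul_of_nonneg_right hce hg.le
  have h3 : log 2 * (near + L₀ * bad + L₀ * (ci * (thin + a₂) + zt) + r₁) =
      log 2 * near + log 2 * (L₀ * bad) + log 2 * (L₀ * (ci * thin)) +
        log 2 * (L₀ * (ci * a₂)) + log 2 * (L₀ * zt) + log 2 * r₁ := by ring
  rw [h3] at h
  nlinarith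

end Vale.Agent.P065.H806
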